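import Vale.Agent.P190.Quad

/-!
# P190: small Cohen-Macaulay modules ascend along quadratic extensions `R = B + J y`,
stated with Mathlib notions only
-/

universe u

namespace Vale.Agent.Results.P190.PlainQuadratic

open RingTheory.Sequence IsLocalRing

theorem result {B L : Type u} [CommRing B] [IsLocalRing B] [IsNoetherianRing B] [CommRing L]
    [Algebra B L] (hinj : Function.Injective (algebraMap B L))
    (N : Type u) [AddCommGroup N] [Module B N] (hN : Module.Finite B N)
    (rs : List B) (hrs : ∀ r ∈ rs, r ∈ maximalIdeal B) (hreg : IsRegular N rs)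
    (hlen : (rs.length : WithBot ℕ∞) = ringKrullDim B)
    (J : Submodule B L) (hJ : J.FG) (y a : L) (m : ℕ) (u v : Fin m → L)
    (hy : y ^ 2 = a * y + ∑ k, u k * v k)
    (ha : ∀ x ∈ J, ∃ b : B, algebraMap B L b = x * a)
    (hu : ∀ k, ∀ x ∈ J, ∃ b : B, algebraMap B L b = x * u k)
    (hv : ∀ k, ∀ x ∈ J, ∃ b : B, algebraMap B L b = x * v k)
    (hind : ∀ x ∈ J, ∀ b : B, x * y = algebraMap B L b → x = 0)
    (R : Subalgebra B L)
    (hR : ∀ z, z ∈ R ↔ ∃ b : B, ∃ x ∈ J, z = algebraMap B L b + x * y) [IsLocalRing R] :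
    Module.Finite B R ∧
      ∃ (M : Type u) (_ : AddCommGroup M) (_ : Module R M), Module.Finite R M ∧
        ∃ ss : List R, (∀ r ∈ ss, r ∈ maximalIdeal R) ∧ IsRegular M ss ∧
          (ss.length : WithBot ℕ∞) = ringKrullDim R :=
  Vale.Agent.P190.main hinj ⟨N, inferInstance, inferInstance, hN, rs, hrs, hreg, hlen⟩
    J hJ y a m u v hy ha hu hv hind R hR

end Vale.Agent.Results.P190.PlainQuadratic
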