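import Vale.Agent.P190.Quad

/-!
# P190: small Cohen-Macaulay modules ascend along quadratic extensions `B[J y]`

`B` is a Noetherian local ring with a small Cohen-Macaulay module, contained in a commutative
ring `L`.  `J` is a finitely generated `B`-submodule of `L`, and `y` in `L` satisfies
`y ^ 2 = a * y + ∑ k, u k * v k` where `a`, `u k`, `v k` all multiply `J` into `B`.
If `B ∩ J y = 0` and `R = B[J y]` is local, then `R` is module-finite over `B` and
has a small Cohen-Macaulay module.
-/

universe u

namespace Vale.Agent.Results.P190.QuadraticGoingUp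

open Vale.Agent.P190

theorem result {B L : Type u} [CommRing B] [IsLocalRing B] [IsNoetherianRing B] [CommRing L]
    [Algebra B L] (hinj : Function.Injective (algebraMap B L)) (hB : HasSmallCM B)
    (J : Submodule B L) (hJ : J.FG) (y a : L) (m : ℕ) (u v : Fin m → L)
    (hy : y ^ 2 = a * y + ∑ k, u k * v k)
    (ha : ∀ x ∈ J, x * a ∈ (algebraMap B L).range)
    (hu : ∀ k, ∀ x ∈ J, x * u k ∈ (algebraMap B L).range)
    (hv : ∀ k, ∀ x ∈ J, x * v k ∈ (algebraMap B L).range)
    (hind : ∀ x ∈ J, x * y ∈ (algebraMap B L).range → x = 0)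
    [IsLocalRing (Algebra.adjoin B {z : L | ∃ x ∈ J, z = x * y})] :
    Module.Finite B (Algebra.adjoin B {z : L | ∃ x ∈ J, z = x * y}) ∧
      HasSmallCM (Algebra.adjoin B {z : L | ∃ x ∈ J, z = x * y}) := by
  refine main hinj hB J hJ y a m u v hy ha hu hv (fun x hx b hb => hind x hx ⟨b, hb.symm⟩) _ ?_
  intro z
  constructor
  · intro hz
    induction hz using Algebra.adjoin_induction with
    | mem z hz =>
      obtain ⟨x, hx, rfl⟩ := hz
      exact ⟨0, x, hx, by simp⟩
    | algebraMap b => exact ⟨b, 0, J.zero_mem, by simp⟩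
    | add z z' _ _ h h' =>
      obtain ⟨b, x, hx, rfl⟩ := h
      obtain ⟨b', x', hx', rfl⟩ := h'
      exact ⟨b + b', x + x', J.add_mem hx hx', by simp only [map_add]; ring⟩
    | mul z z' _ _ h h' =>
      obtain ⟨b, x, hx, rfl⟩ := h
      obtain ⟨b', x', hx', rfl⟩ := h'
      obtain ⟨c, hc⟩ := ha x hx
      choose p hp using fun k => hu k x hx
      choose q hq using fun k => hv k x' hx'
      refine ⟨b * b' + ∑ k, p k * q k, b • x' + b' • x + c • x',
        J.add_mem (J.add_mem (J.smul_mem _ hx') (J.smul_mem _ hx)) (J.smul_mem _ hx'), ?_⟩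
      simp only [map_add, map_mul, map_sum, Algebra.smul_def, hp, hq, hc]
      have : ∑ k, x * u k * (x' * v k) = x * x' * ∑ k, u k * v k := by
        rw [Finset.mul_sum]
        exact Finset.sum_congr rfl fun k _ => by ring
      rw [this]
      linear_combination x * x' * hy
  · rintro ⟨b, x, hx, rfl⟩
    exact Subalgebra.add_mem _ (Subalgebra.algebraMap_mem _ b)
      (Algebra.subset_adjoin ⟨x, hx, rfl⟩)

end Vale.Agent.Results.P190.QuadraticGoingUp
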